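import Vale.Agent.P253.R2.H445.All

open scoped Manifold ContDiff Bundle
open Bundle Vale.Agent.P253.Mfd Vale.Agent.P253.CStar Vale.Agent.P253.R2

namespace Vale.Agent.Results.P253.CircleUniformization

/-- Let `M` be a complete connected noncompact Kähler manifold of nonnegative bisectional
curvature. (1) Every smooth one-parameter group of biholomorphisms of `M` extends to a unique
holomorphic action of `ℂ`. (2) Every smooth circle action by biholomorphisms extends to a
holomorphic action of `ℂ*`. (3) If such a circle action (the metric is not assumed to be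
invariant) has a fixed point `p` with positive weights, and the curvature is positive at `p`, then
the action is linearized by a biholomorphism from `M` to `T_p M = ℂ^n`. (4) If the curvature is
positive, `M` is biholomorphic to `ℂ^n` if and only if the complex manifold `M` has a circle action
with such a fixed point. (5) Suppose that `M` is biholomorphic to a domain `Ω` of `ℂ^n` (`e` is a
global holomorphic chart, `Ω` its target). If `Ω` is invariant under the real times of a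
holomorphic action of `ℂ` on `ℂ^n`, it is invariant under all complex times; if `Ω` is a tube, or if
it contains `0` and is invariant under `diag (exp (i m_j t))` with real `m_j > 0`, then
`Ω = ℂ^n`. -/
theorem result {E : Type*} [NormedAddCommGroup E] [NormedSpace ℂ E] [FiniteDimensional ℂ E]
    {M : Type*} [MetricSpace M] [ChartedSpace E M]
    [IsManifold 𝓘(ℂ, E) 1 M] [IsManifold 𝓘(ℝ, E) ∞ M]
    [RiemannianBundle (fun x : M => TangentSpace 𝓘(ℝ, E) x)]
    [IsContMDiffRiemannianBundle 𝓘(ℝ, E) ∞ E (fun x : M => TangentSpace 𝓘(ℝ, E) x)]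
    [IsRiemannianManifold 𝓘(ℝ, E) M]
    [CompleteSpace M] [NoncompactSpace M] [ConnectedSpace M] (hK : IsKahler E M)
    (hnn : ∀ x : M, NonnegBisectionalAt E x) :
    (∀ ρ : ℝ → M → M, IsHolFlow E ρ →
      ∃! ψ : ℂ → M → M, IsHolCFlow E ψ ∧ ∀ (t : ℝ) (x : M), ψ (t * Complex.I) x = ρ t x) ∧
    (∀ ρ : ℝ → M → M, IsHolCircleAction E ρ →
      ∃ _ : MulAction ℂˣ M, IsHolomorphicAction E M ∧
        ∀ (a : ℂˣ) (t : ℝ) (x : M), (a : ℂ) = Complex.exp (t * Complex.I) → a • x = ρ t x) ∧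
    (∀ ρ : ℝ → M → M, IsHolCircleAction E ρ → ∀ p : M, IsPosFixedPoint E ρ p →
      PosBisectionalAt E p →
      ∃ F : M ≃ₘ^1⟮𝓘(ℂ, E), 𝓘(ℂ, E)⟯ E, F p = 0 ∧
        (∀ v : E, (mfderiv 𝓘(ℂ, E) 𝓘(ℂ, E) F p : E → E) v = v) ∧
        (∀ (t : ℝ) (x : M), F (ρ t x) = (mfderiv 𝓘(ℂ, E) 𝓘(ℂ, E) (ρ t) p : E → E) (F x)) ∧
        ∃ C > 0, ∀ (x : M) (R : ℝ), (∀ t : ℝ, dist p (ρ t x) ≤ R) →
          ‖F x‖ ≤ C * Real.exp (C * R)) ∧
    ((∀ x : M, PosBisectionalAt E x) →
      (Nonempty (M ≃ₘ^1⟮𝓘(ℂ, E), 𝓘(ℂ, E)⟯ E) ↔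
        ∃ ρ : ℝ → M → M, IsHolCircleAction E ρ ∧ ∃ p : M, IsPosFixedPoint E ρ p)) ∧
    ∀ e ∈ IsManifold.maximalAtlas 𝓘(ℂ, E) 1 M, e.source = Set.univ →
      (∀ σ : ℂ → E → E, IsHolCFlow E σ →
        (∀ t : ℝ, ∀ z ∈ e.target, σ (t * Complex.I) z ∈ e.target) →
        ∀ ζ : ℂ, ∀ z ∈ e.target, σ ζ z ∈ e.target) ∧
      (∀ V : Submodule ℝ E, Submodule.span ℂ (V : Set E) = ⊤ →
        (∀ z ∈ e.target, ∀ v ∈ V, z + v ∈ e.target) → e.target = Set.univ) ∧
      ∀ (b : Module.Basis (Fin (Module.finrank ℂ E)) ℂ E) (m : Fin (Module.finrank ℂ E) → ℝ),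
        (∀ j, 0 < m j) → (0 : E) ∈ e.target →
        (∀ t : ℝ, ∀ z ∈ e.target,
          ∑ j, (Complex.exp (t * m j * Complex.I) * b.repr z j) • b j ∈ e.target) →
        e.target = Set.univ := by
  have hExt := H445.hasExt_of_nonneg hK hnn
  obtain ⟨h3, h4⟩ := H445.final hK hnn hExt
  exact ⟨fun ρ hρ => H445.existsUnique_ext hExt hρ, fun ρ hρ => H445.circle_ext' hExt hρ, h3, h4,
    fun e he hs => ⟨fun σ hσ hinv ζ z hz => H445.inv_complex hExt he hs hσ hinv ζ hz,
      fun V hV hinv => H445.tube' hExt he hs hV hinv,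
      fun b m hm h0 hinv => H445.circular' hExt he hs h0 b hm hinv⟩⟩

end Vale.Agent.Results.P253.CircleUniformization
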