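import Vale.Agent.P253.R2.H922.Final

open scoped Manifold ContDiff Bundle
open Bundle IsManifold Set Metric Vale.Agent.P253.Mfd Vale.Agent.P253.R2.H922

namespace Vale.Agent.Results.P253.RiemannDomains

/-- Let `M` be a complete connected Kähler manifold of nonnegative bisectional curvature.
(1) If `q : M → ℂ^n` is locally biholomorphic, then `q` is a biholomorphism or minus the logarithm
of the distance to the boundary of the Riemann domain `q` is plurisubharmonic. (2) It is a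
biholomorphism if the coordinate fields of `q` grow at most like `r ^ (1 + o(1))`, or if for
points at distance `R` the inverse branches of `q` exist on balls of radius `R ^ (-o(1))`;
(3) `M = ℂ^n` if and only if there is such a `q`. (4) If `q` is injective, `M` has a continuous
plurisubharmonic exhaustion function. (5) If `j : M → N` is locally biholomorphic, `N` any complex
manifold, then `M` is locally pseudoconvex over `N`. (6) If `j` is injective and `n ≥ 2`, the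
complement of `M` in `N` has no nonempty compact relatively open part inside a chart. -/
theorem result {E : Type*} [NormedAddCommGroup E] [NormedSpace ℂ E] [FiniteDimensional ℂ E]
    {M : Type*} [MetricSpace M] [ChartedSpace E M]
    [IsManifold 𝓘(ℂ, E) 1 M] [IsManifold 𝓘(ℝ, E) ∞ M]
    [RiemannianBundle (fun x : M => TangentSpace 𝓘(ℝ, E) x)]
    [IsContMDiffRiemannianBundle 𝓘(ℝ, E) ∞ E (fun x : M => TangentSpace 𝓘(ℝ, E) x)]
    [IsRiemannianManifold 𝓘(ℝ, E) M]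
    [CompleteSpace M] [ConnectedSpace M] (hK : IsKahler E M)
    (hnn : ∀ x : M, NonnegBisectionalAt E x) :
    (∀ q : M → E, IsLocalDiffeomorph 𝓘(ℂ, E) 𝓘(ℂ, E) 1 q →
      (∃ F : M ≃ₘ^1⟮𝓘(ℂ, E), 𝓘(ℂ, E)⟯ E, ∀ x, F x = q x) ∨
      ((∀ x, BddAbove (radii q x) ∧ 0 < bdist q x) ∧
        IsContPsh E (fun x => -Real.log (bdist q x)))) ∧
    (∀ (q : M → E) (p : M), IsLocalDiffeomorph 𝓘(ℂ, E) 𝓘(ℂ, E) 1 q →
      ((∀ ε : ℝ, 0 < ε → ∃ C : ℝ, ∀ (x : M) (v : TangentSpace 𝓘(ℝ, E) x),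
          ‖v‖ ≤ C * (1 + dist p x) ^ (1 + ε) * ‖dmap q x v‖) ∨
        (∀ ε : ℝ, 0 < ε → ∀ R₀ : ℝ, ∃ R > R₀, ∀ x : M, dist x p = R →
          ∃ r ∈ radii q x, R ^ (-ε) ≤ r)) →
      ∃ F : M ≃ₘ^1⟮𝓘(ℂ, E), 𝓘(ℂ, E)⟯ E, ∀ x, F x = q x) ∧
    (Nonempty (M ≃ₘ^1⟮𝓘(ℂ, E), 𝓘(ℂ, E)⟯ E) ↔
      ∃ (q : M → E) (p : M), IsLocalDiffeomorph 𝓘(ℂ, E) 𝓘(ℂ, E) 1 q ∧
        ∀ ε : ℝ, 0 < ε → ∀ R₀ : ℝ, ∃ R > R₀, ∀ x : M, dist x p = R →
          ∃ r ∈ radii q x, R ^ (-ε) ≤ r) ∧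
    (∀ q : M → E, IsLocalDiffeomorph 𝓘(ℂ, E) 𝓘(ℂ, E) 1 q → Function.Injective q →
      ∃ u : M → ℝ, IsContPsh E u ∧ ∀ t : ℝ, IsCompact {x | u x ≤ t}) ∧
    (∀ (N : Type*) [TopologicalSpace N] [T2Space N] [ChartedSpace E N] [IsManifold 𝓘(ℂ, E) 1 N]
      (j : M → N), IsLocalDiffeomorph 𝓘(ℂ, E) 𝓘(ℂ, E) 1 j →
      ∀ e ∈ maximalAtlas 𝓘(ℂ, E) 1 N, e.target ≠ univ →
      ∀ (f : ℂ → M) (c : ℂ) (r : ℝ), 0 < r → ContinuousOn f (closedBall c r) →
        MDifferentiableOn 𝓘(ℂ, ℂ) 𝓘(ℂ, E) f (ball c r) →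
        (∀ z ∈ closedBall c r, j (f z) ∈ e.source ∧
          closedBall (e (j (f z))) (bdistOver j e (f z)) ⊆ e.target) →
        -Real.log (bdistOver j e (f c)) ≤
          Real.circleAverage (fun z => -Real.log (bdistOver j e (f z))) c r) ∧
    (2 ≤ Module.finrank ℂ E →
      ∀ (N : Type*) [TopologicalSpace N] [T2Space N] [ChartedSpace E N] [IsManifold 𝓘(ℂ, E) 1 N]
      (j : M → N), IsLocalDiffeomorph 𝓘(ℂ, E) 𝓘(ℂ, E) 1 j → Function.Injective j →
      ∀ e ∈ maximalAtlas 𝓘(ℂ, E) 1 N, ∀ V : Set N, IsOpen V → IsCompact (V \ range j) →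
        V \ range j ⊆ e.source → V ⊆ range j) := by
  have hKP := keyProp hK hnn
  refine ⟨fun q hq => ?_, fun q p hq h => ?_, ⟨?_, ?_⟩, fun q hq hi => hKP.exhaustion hq hi,
    ?_, ?_⟩
  · by_cases hb : ∀ x, BddAbove (radii q x)
    · exact Or.inr ⟨fun x => ⟨hb x, bdist_pos hq.isLocalHomeomorph (hb x)⟩, hKP.psh hq hb⟩
    · push Not at hb
      obtain ⟨x, hx⟩ := hb
      exact Or.inl (exists_diffeo_of_not_bddAbove hq hx)
  · rcases h with h | h
    · exact uniformization_metric hK hnn hq p h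
    · exact uniformization hKP (liouvilleLog hK hnn) hq p h
  · rintro ⟨F⟩
    exact exists_of_diffeo F
  · rintro ⟨q, p, hq, h⟩
    obtain ⟨F, -⟩ := uniformization hKP (liouvilleLog hK hnn) hq p h
    exact ⟨F⟩
  · intro N _ _ _ _ j hj e he hne f c r hr hf hf' h
    exact hKP.submean_over' hj he hne hr hf hf' h
  · intro hdim N _ _ _ _ j hj hinj e he V hV hc hVe
    exact hKP.no_holes hj hinj he hdim hV hc hVe

end Vale.Agent.Results.P253.RiemannDomains
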