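import Vale.Agent.P253.R2.H922.SCFinal
import Vale.Agent.P253.R2.H451.Imm4
import Vale.Agent.P253.R2.H451.Bus6
import Vale.Agent.P253.R2.H451.Cur2

open scoped Manifold ContDiff Bundle
open Bundle IsManifold Set Metric Filter Vale.Agent.P253.Mfd Vale.Agent.P253.R2
  Vale.Agent.P253.R2.H922 Vale.Agent.P253.R2.H451 Vale.Agent.P253.R2.H618
  Vale.Agent.P253.R2.H380.Stein

namespace Vale.Agent.Results.P253.SteinCriteria

/-- Let `M` be a complete connected noncompact Kähler manifold of nonnegative bisectional curvature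
and of complex dimension `n`; let `A` be a compact set, empty if the curvature is not positive.
(1) If the curvature is positive (or, at the points where it is not, the point is isolated in a
fibre of a holomorphic map to some `ℂ^k`), then for every holomorphic `h : M → ℂ^n` the open set of
the points at which the differential of `h` is injective has a continuous strictly plurisubharmonic
exhaustion function. (2) So has `M` if there is a locally biholomorphic `q : M → ℂ^n`. (3) `M` has a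
continuous strictly plurisubharmonic exhaustion function if and only if there is a continuous
`ψ ≥ 0` with `i∂∂̄ψ ≥ ω`; (4) it also has one if there is a continuous `ψ` with `i∂∂̄ψ ≥ ω` and
`ψ ≥ -C - a d(p, x)²`, `a < 1`. (5) If `ψ` is continuous and `i∂∂̄ψ ≥ λ(d(p, x)) ω`, then
`B(x) = ψ(x) + (1/320) ∫_0^{d(p, x)} s λ(s) ds` is bounded from above on the hull of every compact
set with respect to the continuous plurisubharmonic functions, and `M` has a continuous strictly
plurisubharmonic exhaustion function if `B → ∞` at infinity. If `∫^∞ s λ(s) ds = ∞`, it also has one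
(6) if there is a continuous plurisubharmonic function `u` with `i∂∂̄u ≥ e^{-u} λ(d(p, x)) ω` outside
`A`; (7) or a holomorphic map `F` to some `ℂ^k`, a continuous plurisubharmonic `φ` and an `α > 0` with
`a + κ b^α ≥ e^{-φ} λ(d(p, x))` outside `A`, where `|dF(v)|² ≥ a |v|²` for all tangent vectors `v` at
`x` and `|dF(v)|² ≥ b |v|²` for some `v ≠ 0`, and where `κ ≥ 0` is a lower bound for the bisectional
curvature at `x`. (8) If `u`, `χ` are continuous and plurisubharmonic
and `i∂∂̄u ≥ e^{-u} ω` on `{χ > 0}` outside `A`, then `d(p, x)² χ(x)` is bounded from above on the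
hull of every compact set. (9) For every compact `K` and every holomorphic map `F` to some `ℂ^k`
there is a `C` such that `ε^n d(p, x)² ≤ C (1 - log ε)` for all points `x` of the hull of `K` and all
`0 < ε ≤ 1` such that `|dF(v)|² ≥ ε |v|²` for all tangent vectors `v` at `x`. (10) If the curvature
is positive, then `M` has a continuous strictly plurisubharmonic exhaustion function if and only if
there is no sequence `x_j → ∞` in the hull of a compact set along which the least value of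
`|dF(v)|`, `|v| = 1`, tends to `0` for every holomorphic map `F` to some `ℂ^k`. (11) Let the
bisectional curvature be at least `k(d(p, x))`, where `k > 0` is continuous, nonincreasing and
integrable, let `Q(r) = ∫_r^∞ k` and let `b(x) = limsup_{q → ∞} (d(p, q) - d(x, q))` be the Busemann
function. Then `b` is plurisubharmonic and `i∂∂̄b ≥ (Q(d(p, x)) / 4) ω`; and `M` has a continuous
strictly plurisubharmonic exhaustion function if and only if there are a continuous
plurisubharmonic `φ` and a `λ` with `∫^∞ s λ(s) ds = ∞` such that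
`λ(d(p, x)) ≤ e^{b + φ} Q(d(p, x))`; or if and only if there is a continuous plurisubharmonic `φ`
with `b + φ + (1/1280) ∫_0^{d(p, x)} s Q(s) ds → ∞` at infinity. (12) If the bisectional curvature
is at least `c / (1 + d(p, x))³`, `c > 0`, then `M` has a continuous strictly plurisubharmonic
exhaustion function if and only if there is a continuous plurisubharmonic `φ ≥ -b`. -/
theorem result {E : Type*} [NormedAddCommGroup E] [NormedSpace ℂ E] [FiniteDimensional ℂ E]
    {M : Type*} [MetricSpace M] [ChartedSpace E M]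
    [IsManifold 𝓘(ℂ, E) 1 M] [IsManifold 𝓘(ℝ, E) ∞ M]
    [RiemannianBundle (fun x : M => TangentSpace 𝓘(ℝ, E) x)]
    [IsContMDiffRiemannianBundle 𝓘(ℝ, E) ∞ E (fun x : M => TangentSpace 𝓘(ℝ, E) x)]
    [IsRiemannianManifold 𝓘(ℝ, E) M]
    [CompleteSpace M] [ConnectedSpace M] [NoncompactSpace M] (hK : IsKahler E M)
    (hnn : ∀ x : M, NonnegBisectionalAt E x) :
    ((∀ y : M, PosBisectionalAt E y ∨ IsolatedInFibre E y) →
      ∀ (h : M → E) (hh : MDifferentiable 𝓘(ℂ, E) 𝓘(ℂ, E) h),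
        HasSpshExhaustion E (RegO h hh)) ∧
    (∀ q : M → E, IsLocalDiffeomorph 𝓘(ℂ, E) 𝓘(ℂ, E) 1 q → HasSpshExhaustion E M) ∧
    (HasSpshExhaustion E M ↔ ∃ ψ : M → ℝ, WeakLevi E ψ (fun _ => 1) univ ∧ ∀ x, 0 ≤ ψ x) ∧
    (∀ (p : M) (ψ : M → ℝ) (a C : ℝ), WeakLevi E ψ (fun _ => 1) univ → a < 1 →
      (∀ x, -C - a * dist p x ^ 2 ≤ ψ x) → HasSpshExhaustion E M) ∧
    (∀ (p : M) (ψ : M → ℝ) (lam : ℝ → ℝ), IsDecay lam →
      WeakLevi E ψ (fun x => lam (dist p x)) univ →
      (∀ K : Set M, IsCompact K → ∃ C : ℝ, ∀ x ∈ pshHull E K,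
        ψ x + 1 / 320 * ∫ s in (0:ℝ)..dist p x, s * lam s ≤ C) ∧
      (Tendsto (fun x => ψ x + 1 / 320 * ∫ s in (0:ℝ)..dist p x, s * lam s) (cocompact M) atTop →
        HasSpshExhaustion E M)) ∧
    (∀ (p : M) (A : Set M) (u : M → ℝ) (lam : ℝ → ℝ), IsCompact A → PosOrEmpty E A →
      ContPsh E u → IsDecay lam →
      WeakLevi E u (fun x => Real.exp (-u x) * lam (dist p x)) Aᶜ →
      Tendsto (fun r : ℝ => ∫ s in (0:ℝ)..r, s * lam s) atTop atTop → HasSpshExhaustion E M) ∧
    (∀ (p : M) (A : Set M) (n : ℕ) (F : M → EuclideanSpace ℂ (Fin n)) (φ : M → ℝ) (lam : ℝ → ℝ)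
      (α : ℝ), IsCompact A → PosOrEmpty E A → IsHolMap E F → ContPsh E φ → IsDecay lam → 0 < α →
      (∀ x ∉ A, ∃ a κ b : ℝ, 0 ≤ κ ∧ 0 ≤ b ∧ DiffGe E F x a ∧ BisectionalGe E x κ ∧
        (∃ v : TangentSpace 𝓘(ℝ, E) x, v ≠ 0 ∧ b * inner ℝ v v ≤ ‖realDiff E F x v‖ ^ 2) ∧
        Real.exp (-φ x) * lam (dist p x) ≤ a + κ * b ^ α) →
      Tendsto (fun r : ℝ => ∫ s in (0:ℝ)..r, s * lam s) atTop atTop → HasSpshExhaustion E M) ∧
    (∀ (p : M) (A K : Set M) (u χ : M → ℝ), IsCompact A → PosOrEmpty E A → IsCompact K →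
      ContPsh E u → ContPsh E χ →
      WeakLevi E u (fun x => Real.exp (-u x)) ({x | 0 < χ x} \ A) →
      ∃ C : ℝ, ∀ x ∈ pshHull E K, dist p x ^ 2 * χ x ≤ C) ∧
    (∀ (K : Set M) (p : M) (n : ℕ) (F : M → EuclideanSpace ℂ (Fin n)), IsCompact K →
      IsHolMap E F → ∃ C : ℝ, ∀ x ∈ pshHull E K, ∀ ε : ℝ, 0 < ε → ε ≤ 1 → DiffGe E F x ε →
        ε ^ Module.finrank ℂ E * dist p x ^ 2 ≤ C * (1 - Real.log ε)) ∧
    ((∀ x : M, PosBisectionalAt E x) →
      (HasSpshExhaustion E M ↔ ¬ ∃ (K : Set M) (x : ℕ → M), IsCompact K ∧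
        (∀ j, x j ∈ pshHull E K) ∧ Tendsto x atTop (cocompact M) ∧
        ∀ (n : ℕ) (F : M → EuclideanSpace ℂ (Fin n)), IsHolMap E F →
          ∀ ε : ℝ, 0 < ε → ∀ᶠ j in atTop, ¬ DiffGe E F (x j) ε)) ∧
    (∀ (p : M) (k : ℝ → ℝ), IsDecay k → MeasureTheory.IntegrableOn k (Ioi 0) →
      (∀ x : M, BisectionalGe E x (k (dist p x))) →
      ContPsh E (busemann p) ∧ IsDecay (fun r => (∫ s in Ioi r, k s) / 4) ∧
      WeakLevi E (busemann p) (fun x => (∫ s in Ioi (dist p x), k s) / 4) univ ∧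
      (HasSpshExhaustion E M ↔ ∃ (φ : M → ℝ) (lam : ℝ → ℝ), ContPsh E φ ∧ IsDecay lam ∧
        Tendsto (fun r : ℝ => ∫ s in (0:ℝ)..r, s * lam s) atTop atTop ∧
        ∀ x, lam (dist p x) ≤ Real.exp (busemann p x + φ x) * ∫ s in Ioi (dist p x), k s) ∧
      (HasSpshExhaustion E M ↔ ∃ φ : M → ℝ, ContPsh E φ ∧
        Tendsto (fun x => busemann p x + φ x +
          1 / 1280 * ∫ s in (0:ℝ)..dist p x, s * ∫ t in Ioi s, k t) (cocompact M) atTop)) ∧
    (∀ (p : M) (c : ℝ), 0 < c → (∀ x : M, BisectionalGe E x (c / (1 + dist p x) ^ 3)) →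
      (HasSpshExhaustion E M ↔ ∃ φ : M → ℝ, ContPsh E φ ∧ ∀ x, -busemann p x ≤ φ x)) := by
  have hprop : ProperSpace M := properSpace_riemannian E M
  refine ⟨fun hpos h hh => stein_reg hK hnn hpos h hh, fun q hq => stein_domain hK hnn q hq,
    ?_, fun p ψ a C hψ => (stein_weak hK hnn).2.1 p ψ a C (weakLeviGe_of_weakLevi hψ),
    fun p ψ lam hl hψ => ⟨fun K hKc => hull_decay hK hnn p hl hψ hKc,
      fun h => exhaustion_of_decay_weak hK hnn p hl.1 hl.2.1 hl.2.2 hψ h⟩,
    fun p A u lam hA hpos hup hl hu h => ?_,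
    fun p A n F φ lam α hA hpos hF hφ hl hα hd h =>
      stein_curv hK hnn p hA hpos hF hφ hl hα hd h,
    fun p A K u χ hA hpos hKc hup hχ hu => hull_weight hK hnn hA hpos hup hχ hu hKc p,
    fun K p n F hKc hF => hull_rate hK hnn hKc hF p, fun hpos => ⟨?_, fun hno => ?_⟩,
    fun p k hk hi hcurv => ?_, fun p c hc hcurv => stein_iff_cubic hK hnn p hc hcurv⟩
  · rw [(stein_weak hK hnn).1]
    exact ⟨fun ⟨ψ, h1, h2⟩ => ⟨ψ, weakLevi_univ h1, h2⟩,
      fun ⟨ψ, h1, h2⟩ => ⟨ψ, weakLeviGe_of_weakLevi h1, h2⟩⟩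
  · have huc := hup.1
    have hlc := hl.1
    exact stein_weight hK hnn p hA hpos hl hup (by fun_prop) hu (fun x _ => by
      rw [← mul_assoc, ← Real.exp_add, add_neg_cancel, Real.exp_zero, one_mul]) h
  · rintro hS ⟨K, x, hKc, hx, hlim, -⟩
    have h1 := (isBounded_hull hK hS hKc).isCompact_closure.compl_mem_cocompact
    obtain ⟨j, hj⟩ := (hlim.eventually h1).exists
    exact hj (subset_closure (hx j))
  · by_contra hS
    rcases stein_or_degenerate hK hnn hpos with h | ⟨K, x, h1, h2, h3, h4⟩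
    · exact hS h
    · refine hno ⟨K, x, h1, h2, h3, fun n F hF ε hε => (h4 n F hF ε hε).mono ?_⟩
      rintro j ⟨v, hv⟩ h
      exact absurd (h v) (not_le.2 hv)
  · obtain ⟨h1, h2, h3⟩ := busemann_levi hK hnn p hk hi hcurv
    exact ⟨h1, h2, h3, stein_iff_busemann hK hnn p hk hi hcurv,
      stein_iff_tendsto hK hnn p hk hi hcurv⟩

end Vale.Agent.Results.P253.SteinCriteria
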